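import Vale.Agent.P025.H641.Comp
import Vale.Agent.P025.H16.Dvr
import Vale.Agent.P025.R2.H816.J03

/-!
# P025 A-DIV (c2), helper833: unramified Kummer theory on the maximal unramified extension

`L` a function field over `kb`, embedded in `N = maxUnr k K` with constants integral over `k`:
every `g` in `L` all of whose orders over `kb` are divisible by `n` is an `n`-th power in `N`.
-/

open IntermediateField P025H641 Vale.Agent.P019P

namespace P025H833

section

variable {k K : Type*} [Field k] [CharZero k] [Field K] [Algebra k K]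

omit [CharZero k] in
/-- finite extensions of function fields are function fields -/
theorem funField_ext {F : Type*} [Field F] [Algebra k F] [Algebra K F] [IsScalarTower k K F]
    [FiniteDimensional K F] {t : K} (hfin : FiniteDimensional k⟮t⟯ K) :
    FiniteDimensional k⟮algebraMap K F t⟯ F := by
  let f : K →ₐ[k] F := IsScalarTower.toAlgHom k K F
  have hmem : ∀ x : k⟮t⟯, algebraMap K F x ∈ k⟮algebraMap K F t⟯ := by
    intro x
    have h1 : f (x : K) ∈ (k⟮t⟯).map f := ⟨x, x.2, rfl⟩
    rw [IntermediateField.adjoin_map, Set.image_singleton] at h1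
    exact h1
  let _ : Algebra k⟮t⟯ k⟮algebraMap K F t⟯ :=
    (((algebraMap K F).comp (algebraMap k⟮t⟯ K)).codRestrict
      (k⟮algebraMap K F t⟯).toSubfield.toSubring hmem).toAlgebra
  have t1 : IsScalarTower k⟮t⟯ K F := inferInstance
  have t2 : IsScalarTower k⟮t⟯ k⟮algebraMap K F t⟯ F :=
    IsScalarTower.of_algebraMap_eq (fun x => rfl)
  have h2 : FiniteDimensional k⟮t⟯ F := FiniteDimensional.trans k⟮t⟯ K F
  exact Module.Finite.of_restrictScalars_finite k⟮t⟯ k⟮algebraMap K F t⟯ F

/-- a valuation ring which contains a field over which everything is algebraic is everything -/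
theorem eq_top_of_comap {F E : Type*} [Field F] [Field E] [Algebra F E] [Algebra.IsAlgebraic F E]
    (V : ValuationSubring E) (h : V.comap (algebraMap F E) = ⊤) : V = ⊤ := by
  have hF : ∀ x : F, algebraMap F E x ∈ V := by
    intro x
    have h1 : x ∈ V.comap (algebraMap F E) := by
      rw [h]; exact ValuationSubring.mem_top _
    exact h1
  rw [eq_top_iff]
  intro x _
  let φ : F →+* V := (algebraMap F E).codRestrict V.toSubring (fun x => hF x)
  let _ : Algebra F V := φ.toAlgebra
  have : IsScalarTower F V E := IsScalarTower.of_algebraMap_eq (fun x => rfl)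
  have hx : IsIntegral V x := (Algebra.IsIntegral.isIntegral (R := F) x).tower_top
  obtain ⟨y, hy⟩ := IsIntegrallyClosed.isIntegral_iff.mp hx
  rw [← hy]
  exact y.2

/-- the values of a valuation ring over `k` on `maxUnr k K` are values on `K` -/
theorem exists_val {t : K} (hfin : FiniteDimensional k⟮t⟯ K)
    (W : ValuationSubring (AlgebraicClosure K))
    (hk : ∀ c : k, algebraMap k (AlgebraicClosure K) c ∈ W)
    {y : AlgebraicClosure K} (hy : y ∈ maxUnr k K) :
    ∃ a : K, W.valuation (algebraMap K (AlgebraicClosure K) a) = W.valuation y := by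
  by_cases hy0 : y = 0
  · exact ⟨0, by rw [map_zero, hy0]⟩
  obtain ⟨F, hF, hyF⟩ := exists_finUnr_mem hy
  have hfinF : FiniteDimensional K F := hF.1
  have htw : IsScalarTower k F (AlgebraicClosure K) :=
    IsScalarTower.of_algebraMap_eq (fun x => by
      rw [IsScalarTower.algebraMap_apply k K F, ← IsScalarTower.algebraMap_apply K F,
        ← IsScalarTower.algebraMap_apply])
  by_cases htop : W.comap (algebraMap F (AlgebraicClosure K)) = ⊤
  · have h1 : W = ⊤ := eq_top_of_comap W htop
    refine ⟨1, ?_⟩
    rw [map_one, map_one]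
    have hu : ∀ z : AlgebraicClosure K, W.valuation z ≤ 1 := by
      intro z
      rw [W.valuation_le_one_iff, h1]
      exact ValuationSubring.mem_top _
    apply le_antisymm _ (hu y)
    have h2 := hu y⁻¹
    rw [map_inv₀] at h2
    have hpos : 0 < W.valuation y := zero_lt_iff.2 ((map_ne_zero _).2 hy0)
    exact (inv_le_one₀ hpos).1 h2
  · have hplace : IsPlace k F (W.comap (algebraMap F (AlgebraicClosure K))) := by
      have hc : ∀ c : k, algebraMap k F c ∈ W.comap (algebraMap F (AlgebraicClosure K)) := by
        intro c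
        rw [ValuationSubring.mem_comap, ← IsScalarTower.algebraMap_apply]
        exact hk c
      have := funField_ext (F := F) hfin
      exact ⟨hc, P025H16.dvr_of_funField (algebraMap K F t) _ hc htop⟩
    obtain ⟨a, ha⟩ := hF.2 _ hplace ⟨y, hyF⟩
    refine ⟨a, ?_⟩
    rw [comap_val_eq_iff, ← IsScalarTower.algebraMap_apply] at ha
    exact ha

/-- **unramified Kummer theory on the maximal unramified extension**: `L` a function field over
`kb` (algebraically closed), `j : L → maxUnr k K` a homomorphism which maps constants to elements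
integral over `k`. If all orders of `g` are divisible by `n` then `j g` is an `n`-th power. -/
theorem exists_root_maxUnr {t : K} (hfin : FiniteDimensional k⟮t⟯ K)
    {kb L : Type*} [Field kb] [Field L] [Algebra kb L] [CFF kb L]
    (j : L →+* maxUnr k K) (hj : ∀ c : kb, IsIntegral k (j (algebraMap kb L c)))
    {n : ℕ} (hn : n ≠ 0) {g : L} (hg : ∀ P : Plk kb L, (n : ℤ) ∣ ord P g) :
    ∃ y : maxUnr k K, y ^ n = j g := by
  by_cases hg0 : g = 0
  · exact ⟨0, by rw [hg0, map_zero, zero_pow hn]⟩
  obtain ⟨w, hw⟩ := IsAlgClosed.exists_pow_nat_eq ((j g : maxUnr k K) : AlgebraicClosure K)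
    (Nat.pos_of_ne_zero hn)
  obtain ⟨F, hF, hgF⟩ := exists_finUnr_mem (j g).2
  have hfinF : FiniteDimensional K F := hF.1
  have htw : IsScalarTower k F (AlgebraicClosure K) :=
    IsScalarTower.of_algebraMap_eq (fun x => by
      rw [IsScalarTower.algebraMap_apply k K F, ← IsScalarTower.algebraMap_apply K F,
        ← IsScalarTower.algebraMap_apply])
  have htw2 : IsScalarTower k (maxUnr k K) (AlgebraicClosure K) :=
    IsScalarTower.of_algebraMap_eq (fun x => by
      rw [IsScalarTower.algebraMap_apply k K (maxUnr k K),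
        ← IsScalarTower.algebraMap_apply K (maxUnr k K), ← IsScalarTower.algebraMap_apply])
  have hdiv : IsDivisible n k (⟨_, hgF⟩ : F) := by
    intro V hV
    obtain ⟨W, hW⟩ := exists_val_extension (L := AlgebraicClosure K) V
    have hk : ∀ c : k, algebraMap k (AlgebraicClosure K) c ∈ W := by
      intro c
      have h1 := hV.const_mem c
      rw [← hW, ValuationSubring.mem_comap, ← IsScalarTower.algebraMap_apply] at h1
      exact h1
    let φ : L →+* AlgebraicClosure K :=
      (algebraMap (maxUnr k K) (AlgebraicClosure K)).comp j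
    have hint : ∀ c : kb, φ (algebraMap kb L c) ∈ W := by
      intro c
      have h1 : IsIntegral k (φ (algebraMap kb L c)) :=
        (hj c).map (IsScalarTower.toAlgHom k (maxUnr k K) (AlgebraicClosure K))
      let ψ : k →+* W :=
        (algebraMap k (AlgebraicClosure K)).codRestrict W.toSubring (fun x => hk x)
      let _ : Algebra k W := ψ.toAlgebra
      have : IsScalarTower k W (AlgebraicClosure K) :=
        IsScalarTower.of_algebraMap_eq (fun x => rfl)
      have h2 : IsIntegral W (φ (algebraMap kb L c)) := h1.tower_top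
      obtain ⟨y, hy⟩ := IsIntegrallyClosed.isIntegral_iff.mp h2
      rw [← hy]
      exact y.2
    -- an element of `L` whose `n`-th power has the value of `g`
    have hL : ∃ h : L, W.valuation (φ g) = W.valuation (φ h) ^ n := by
      by_cases htop : W.comap φ = ⊤
      · refine ⟨1, ?_⟩
        rw [map_one, map_one, one_pow]
        have hu : ∀ z : L, W.valuation (φ z) ≤ 1 := by
          intro z
          rw [W.valuation_le_one_iff]
          have h1 : z ∈ W.comap φ := by
            rw [htop]; exact ValuationSubring.mem_top _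
          exact h1
        apply le_antisymm (hu g)
        have h2 := hu g⁻¹
        rw [map_inv₀, map_inv₀] at h2
        have hpos : 0 < W.valuation (φ g) :=
          zero_lt_iff.2 ((map_ne_zero _).2 ((map_ne_zero _).2 hg0))
        exact (inv_le_one₀ hpos).1 h2
      · let P : Plk kb L := ⟨W.comap φ, fun c => hint c, htop⟩
        obtain ⟨m, hm⟩ := hg P
        obtain ⟨π, hπ0, hπ⟩ := exists_unif P
        refine ⟨π ^ m, ?_⟩
        have h0 : g ≠ 0 := hg0
        have hq0 : g / (π ^ m) ^ n ≠ 0 := div_ne_zero h0 (pow_ne_zero _ (zpow_ne_zero _ hπ0))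
        have hord : ord P (g / (π ^ m) ^ n) = 0 := by
          rw [div_eq_mul_inv, ord_mul P h0 (inv_ne_zero (pow_ne_zero _ (zpow_ne_zero _ hπ0))),
            ord_inv, ord_pow, ord_zpow, hπ, hm]
          ring
        have hu1 : g / (π ^ m) ^ n ∈ P.1 := (mem_iff_ord P _).2 (Or.inr hord.ge)
        have hu2 : (g / (π ^ m) ^ n)⁻¹ ∈ P.1 := (mem_iff_ord P _).2 (Or.inr (by
          rw [ord_inv, hord]; simp))
        have e1 : W.valuation (φ (g / (π ^ m) ^ n)) ≤ 1 := (W.valuation_le_one_iff _).2 hu1
        have e2 : W.valuation (φ (g / (π ^ m) ^ n)⁻¹) ≤ 1 := (W.valuation_le_one_iff _).2 hu2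
        rw [map_inv₀, map_inv₀] at e2
        have hpos : 0 < W.valuation (φ (g / (π ^ m) ^ n)) :=
          zero_lt_iff.2 ((map_ne_zero _).2 ((map_ne_zero _).2 hq0))
        have e3 := le_antisymm e1 ((inv_le_one₀ hpos).1 e2)
        rw [map_div₀, map_div₀, map_pow, map_pow, div_eq_one_iff_eq] at e3
        · exact e3
        · exact pow_ne_zero _ ((map_ne_zero _).2 ((map_ne_zero _).2 (zpow_ne_zero _ hπ0)))
    obtain ⟨h, hh⟩ := hL
    obtain ⟨a, ha⟩ := exists_val hfin W hk (y := φ h) (j h).2
    refine ⟨algebraMap K F a, ?_⟩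
    rw [← map_pow, ← hW, comap_val_eq_iff, map_pow, map_pow, ← IsScalarTower.algebraMap_apply,
      ha, ← hh]
    rfl
  have hnk : (n : k) ≠ 0 := Nat.cast_ne_zero.2 hn
  obtain ⟨F', hF', -, hwF'⟩ := hF.exists_root hnk w ⟨_, hgF⟩ hw hdiv
  exact ⟨⟨w, hF'.le_maxUnr hwF'⟩, Subtype.ext hw⟩

end

end P025H833
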