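import Vale.Agent.P025.R2.H833.Uc
import Vale.Agent.P025.R2.H833.Unr
import Vale.Agent.P025.R2.H816.Emb
import Vale.Agent.P025.R2.H720.NC

/-!
# P025 UC, helper833: the concrete form for `NC C kb N` and `N = maxUnr k K`
-/

open IntermediateField Vale.Agent.P019P
open scoped TensorProduct

namespace P025H833

universe u v w

open P025H720

section maxUnr

open P025H641

/-- the maximal unramified extension is closed under unramified Kummer extensions -/
theorem kumMax_maxUnr {k K : Type*} [Field k] [CharZero k] [Field K] [Algebra k K] {t : K}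
    (hfin : FiniteDimensional k⟮t⟯ K) {kb : Type*} [Field kb] [Algebra kb (maxUnr k K)]
    (hj : ∀ c : kb, IsIntegral k (algebraMap kb (maxUnr k K) c)) :
    KumMax kb (maxUnr k K) := by
  intro L hL n g hn hg
  exact exists_root_maxUnr hfin (algebraMap L (maxUnr k K))
    (fun c => by
      rw [← IsScalarTower.algebraMap_apply]
      exact hj c) hn hg

end maxUnr

section NC

variable {C kb N : Type u} [Field C] [Field kb] [IsAlgClosed kb] [Field N]
  [Algebra kb C] [Algebra kb N]

theorem adjoin_range_NC :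
    adjoin C (Set.range (algebraMap N (NC C kb N))) = ⊤ := by
  rw [eq_top_iff]
  intro z _
  obtain ⟨a, b, hb, hab⟩ := IsFractionRing.div_surjective (A := C ⊗[kb] N) (K := NC C kb N) z
  have hmem : ∀ a : C ⊗[kb] N, algebraMap (C ⊗[kb] N) (NC C kb N) a ∈
      adjoin C (Set.range (algebraMap N (NC C kb N))) := by
    intro a
    induction a using TensorProduct.induction_on with
    | zero => rw [map_zero]; exact zero_mem _
    | add x y hx hy => rw [map_add]; exact add_mem hx hy
    | tmul c x =>
      rw [tmul_eq]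
      exact mul_mem (IntermediateField.algebraMap_mem _ _) (subset_adjoin _ _ ⟨x, rfl⟩)
  rw [← hab]
  exact div_mem (hmem a) (hmem b)

omit [IsAlgClosed kb] in
theorem isAlgebraic_adjoin (T x : N) (h : IsAlgebraic (Algebra.adjoin kb {T}) x) :
    IsAlgebraic kb⟮T⟯ x := by
  let _ : Algebra (Algebra.adjoin kb {T}) kb⟮T⟯ :=
    (Subalgebra.inclusion (algebra_adjoin_le_adjoin kb {T})).toRingHom.toAlgebra
  have h1 : IsScalarTower (Algebra.adjoin kb {T}) kb⟮T⟯ N :=
    IsScalarTower.of_algebraMap_eq (fun x => rfl)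
  exact h.extendScalars (Subalgebra.inclusion_injective _)

/-- **UC for `NC C kb N`**. -/
theorem uc_NC [CharZero kb] (hN : KumMax kb N) {T : N} (hT : Transcendental kb T)
    [TrdegOne kb N] {F : Type*} [Field F] [Algebra C F] [CFF C F] (φ : F →ₐ[C] NC C kb N) {n : ℕ}
    (hn : n ≠ 0) {f : F} (hf : ∀ P : Plk C F, (n : ℤ) ∣ ord P f) :
    ∃ y : NC C kb N, y ^ n = φ f :=
  uc hN adjoin_range_NC T (transcendental_NC C kb N hT)
    (fun x => isAlgebraic_adjoin T x (TrdegOne.alg T x hT)) φ hn hf

/-- the base change of `N` is closed under unramified Kummer extensions: the hypothesis of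
`P025H816.exists_embedding`. -/
theorem kumClosed_NC [CharZero kb] (hN : KumMax kb N) {T : N} (hT : Transcendental kb T)
    [TrdegOne kb N] (K : Type*) [Field K] [Algebra C K] [Algebra K (NC C kb N)]
    [IsScalarTower C K (NC C kb N)] : P025H816.KumClosed C K (NC C kb N) := by
  intro F _ _ n f hn _ hf
  exact uc_NC hN hT (F.val.restrictScalars C) hn hf

/-- the form over `C(t)`: `P025H851.Uc C (NCT C kb N T) n`. -/
theorem uc_NCT [CharZero kb] (hN : KumMax kb N) (T : N) [hT : Fact (Transcendental kb T)]
    [TrdegOne kb N] {n : ℕ} (hn : n ≠ 0) :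
    ∀ (F : IntermediateField (RatFunc C) (NCT C kb N T)) [FiniteDimensional (RatFunc C) F]
      [CFF C F] (f : F), f ≠ 0 → (∀ P : Plk C F, (n : ℤ) ∣ ord P f) →
      ∃ y : NCT C kb N T, y ^ n = f := by
  intro F _ _ f _ hf
  let φ : F →ₐ[C] NC C kb N := (F.val.restrictScalars C : F →ₐ[C] NCT C kb N T)
  exact uc_NC hN hT.out φ hn hf

end NC

end P025H833
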