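import Vale.Agent.P025.R2.H816.BC3

/-!
# P025 UC, helper833: unramified Kummer theory for the base change of `N`

`Z` is generated by the algebraically closed field `C` and by `N`; `N` is algebraic over `kb(T)`
and closed under unramified Kummer extensions of finite levels. Then `Z` has the same property.
-/

open IntermediateField Vale.Agent.P019P

namespace P025H833

universe u v w

/-- `N/kb` is closed under unramified Kummer extensions of finite levels. -/
def KumMax (kb : Type*) (N : Type*) [Field kb] [Field N] [Algebra kb N] : Prop :=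
  ∀ (L : IntermediateField kb N) [CFF kb L] (n : ℕ) (g : L), n ≠ 0 →
    (∀ P : Plk kb L, (n : ℤ) ∣ ord P g) → ∃ y : N, y ^ n = g

section cff

variable {k E : Type*} [Field k] [Field E] [Algebra k E]

/-- fields generated by finitely many elements which are algebraic over `k(T)` are function
fields -/
theorem cff_adjoin (hk : IsAlgClosed k) {T : E} (hT : Transcendental k T) {t : Set E}
    (ht : t.Finite) (hTt : T ∈ t) (halg : ∀ x ∈ t, IsAlgebraic k⟮T⟯ x) :
    CFF k (adjoin k t) := by
  have hfd : FiniteDimensional k⟮T⟯ (adjoin k⟮T⟯ t) := by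
    have := ht.to_subtype
    exact finiteDimensional_adjoin (fun x hx => (halg x hx).isIntegral)
  have heq : (adjoin k⟮T⟯ t).restrictScalars k = adjoin k t := by
    rw [adjoin_adjoin_left, Set.singleton_union, Set.insert_eq_of_mem hTt]
  rw [← heq]
  let M : IntermediateField k E := (adjoin k⟮T⟯ t).restrictScalars k
  have hTM : T ∈ M := by
    change T ∈ (adjoin k⟮T⟯ t).restrictScalars k
    rw [heq]
    exact subset_adjoin k t hTt
  let T' : M := ⟨T, hTM⟩
  obtain ⟨e, he⟩ := P025H816.exists_adjoin_equiv (k := k) (L := E) T'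
  have hTT : algebraMap M E T' = T := rfl
  refine ⟨hk, T', ?_, ?_⟩
  · exact (transcendental_algebraMap_iff (R := k) (S := M) (A := E)
      (algebraMap M E).injective).1 hT
  · apply Module.finite_of_finrank_pos
    have h1 : Module.finrank k⟮T'⟯ M = Module.finrank k⟮T⟯ (adjoin k⟮T⟯ t) := by
      refine Algebra.finrank_eq_of_equiv_equiv e
        (RingEquiv.refl (adjoin k⟮T⟯ t)) ?_
      ext z
      exact he z
    have h2 : 0 < Module.finrank k⟮T⟯ (adjoin k⟮T⟯ t) := Module.finrank_pos
    exact h1 ▸ h2

theorem exists_finset_adjoin [CFF k E] : ∃ s : Finset E, adjoin k (s : Set E) = ⊤ := by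
  obtain ⟨x, -, hfd⟩ := CFF.ex (k := k) (F := E)
  have h1 : Algebra.EssFiniteType k E := CFld_essFin hfd
  have h2 : Algebra.EssFiniteType k (⊤ : IntermediateField k E) :=
    Algebra.EssFiniteType.of_surjective (topEquiv (F := k) (E := E)).symm.toAlgHom
      (topEquiv (F := k) (E := E)).symm.surjective
  exact essFiniteType_iff.1 h2

end cff

section uc

variable {kb N : Type u} {C Z : Type v} [Field kb] [Field N] [Field C] [Field Z] [Algebra kb C]
  [Algebra kb N] [Algebra C Z] [Algebra N Z] [Algebra kb Z] [IsScalarTower kb C Z]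
  [IsScalarTower kb N Z]

omit [Algebra kb C] [Algebra kb N] [Algebra kb Z] [IsScalarTower kb C Z]
  [IsScalarTower kb N Z] in
/-- finite levels -/
theorem exists_level (hgen : adjoin C (Set.range (algebraMap N Z)) = ⊤) (s : Finset Z) :
    ∃ t : Finset N, ∀ z ∈ s, z ∈ adjoin C (algebraMap N Z '' (t : Set N)) := by
  classical
  induction s using Finset.induction_on with
  | empty => exact ⟨∅, by simp⟩
  | insert a s _ ih =>
    obtain ⟨t, ht⟩ := ih
    have ha : a ∈ adjoin C (Set.range (algebraMap N Z)) := by
      rw [hgen]; exact mem_top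
    obtain ⟨t', ht', hat'⟩ := exists_finset_of_mem_adjoin ha
    obtain ⟨t'', ht''⟩ : ∃ t'' : Finset N, algebraMap N Z '' (t'' : Set N) = (t' : Set Z) := by
      have h1 := Set.subset_range_iff_exists_image_eq.1 ht'
      obtain ⟨r, hr⟩ := h1
      refine ⟨t'.preimage (algebraMap N Z) (algebraMap N Z).injective.injOn, ?_⟩
      rw [Finset.coe_preimage, Set.image_preimage_eq_of_subset ht']
    refine ⟨t ∪ t'', fun z hz => ?_⟩
    rw [Finset.coe_union, Set.image_union]
    rcases Finset.mem_insert.1 hz with rfl | hz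
    · exact adjoin.mono _ _ _ (by rw [ht'']; exact Set.subset_union_right) hat'
    · exact adjoin.mono _ _ _ Set.subset_union_left (ht z hz)

/-- **UC**: unramified Kummer theory for the base change. -/
theorem uc [CharZero kb] [IsAlgClosed kb] (hN : KumMax kb N)
    (hgen : adjoin C (Set.range (algebraMap N Z)) = ⊤) (T : N)
    (hT : Transcendental C (algebraMap N Z T)) (halg : ∀ x : N, IsAlgebraic kb⟮T⟯ x)
    {F : Type*} [Field F] [Algebra C F] [CFF C F] (φ : F →ₐ[C] Z) {n : ℕ} (hn : n ≠ 0) {f : F}
    (hf : ∀ P : Plk C F, (n : ℤ) ∣ ord P f) : ∃ y : Z, y ^ n = φ f := by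
  classical
  by_cases hf0 : f = 0
  · exact ⟨0, by rw [hf0, map_zero, zero_pow hn]⟩
  have hC : IsAlgClosed C := CFF.ac (k := C) (F := F)
  -- the level
  obtain ⟨s, hs⟩ := exists_finset_adjoin (k := C) (E := F)
  obtain ⟨t₀, ht₀⟩ := exists_level hgen (s.image φ)
  let t : Finset N := insert T t₀
  let K' : IntermediateField C Z := adjoin C (algebraMap N Z '' (t : Set N))
  have hsK : ∀ z ∈ s, φ z ∈ K' := by
    intro z hz
    refine adjoin.mono _ _ _ (Set.image_mono ?_) (ht₀ _ (Finset.mem_image_of_mem φ hz))
    exact Finset.coe_subset.2 (Finset.subset_insert _ _)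
  have hφ : ∀ x : F, φ x ∈ K' := by
    intro x
    have h1 : x ∈ adjoin C (s : Set F) := by rw [hs]; exact mem_top
    have h2 : adjoin C (s : Set F) ≤ K'.comap φ :=
      adjoin_le_iff.2 (fun z hz => hsK z hz)
    exact h2 h1
  -- `L` and `K'` are function fields
  have hTkb : Transcendental kb T := by
    intro h
    apply hT
    have h1 : IsAlgebraic kb (algebraMap N Z T) := h.algebraMap
    exact h1.tower_top C
  let L : IntermediateField kb N := adjoin kb (t : Set N)
  have hTt : T ∈ (t : Set N) := Finset.mem_coe.2 (Finset.mem_insert_self _ _)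
  have hcL : CFF kb L :=
    cff_adjoin inferInstance hTkb t.finite_toSet hTt (fun x _ => halg x)
  have halgZ : ∀ x : N, IsAlgebraic C⟮algebraMap N Z T⟯ (algebraMap N Z x) := by
    intro x
    have hmem : ∀ z : kb⟮T⟯, algebraMap N Z (z : N) ∈ C⟮algebraMap N Z T⟯ := by
      rintro ⟨z, hz⟩
      change algebraMap N Z z ∈ _
      induction hz using IntermediateField.adjoin_induction with
      | mem y hy =>
        rw [Set.mem_singleton_iff] at hy
        rw [hy]
        exact mem_adjoin_simple_self _ _
      | algebraMap a =>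
        rw [← IsScalarTower.algebraMap_apply, IsScalarTower.algebraMap_apply kb C Z]
        exact IntermediateField.algebraMap_mem _ _
      | add y z _ _ hy hz => rw [map_add]; exact add_mem hy hz
      | inv y _ hy => rw [map_inv₀]; exact inv_mem hy
      | mul y z _ _ hy hz => rw [map_mul]; exact mul_mem hy hz
    let ψ : kb⟮T⟯ →+* C⟮algebraMap N Z T⟯ :=
      ((algebraMap N Z).comp (algebraMap kb⟮T⟯ N)).codRestrict
        (C⟮algebraMap N Z T⟯).toSubfield.toSubring hmem
    obtain ⟨p, hp0, hp⟩ := halg x
    refine ⟨p.map ψ, ?_, ?_⟩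
    · exact (Polynomial.map_ne_zero_iff ψ.injective).2 hp0
    · rw [Polynomial.aeval_def, Polynomial.eval₂_map]
      have h1 : (algebraMap C⟮algebraMap N Z T⟯ Z).comp ψ =
          (algebraMap N Z).comp (algebraMap kb⟮T⟯ N) := rfl
      rw [h1, ← Polynomial.hom_eval₂]
      rw [Polynomial.aeval_def] at hp
      rw [hp, map_zero]
  have hcK : CFF C K' := by
    refine cff_adjoin hC hT (t.finite_toSet.image _) ⟨T, hTt, rfl⟩ ?_
    rintro _ ⟨x, -, rfl⟩
    exact halgZ x
  -- `F → K'`
  let φ' : F →+* K' := φ.toRingHom.codRestrict K'.toSubfield.toSubring hφ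
  have hd : ∀ P' : Plk C K', (n : ℤ) ∣ ord P' (φ' f) :=
    P025H816.dvd_up (i := RingHom.id C) (j := φ') (fun a => Subtype.ext (φ.commutes a)) hf
  -- `L → K'`
  have hL : ∀ x : L, algebraMap N Z (x : N) ∈ K' := by
    rintro ⟨z, hz⟩
    change algebraMap N Z z ∈ _
    induction hz using IntermediateField.adjoin_induction with
    | mem y hy => exact subset_adjoin _ _ ⟨y, hy, rfl⟩
    | algebraMap a =>
      rw [← IsScalarTower.algebraMap_apply, IsScalarTower.algebraMap_apply kb C Z]
      exact IntermediateField.algebraMap_mem _ _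
    | add y z _ _ hy hz => rw [map_add]; exact add_mem hy hz
    | inv y _ hy => rw [map_inv₀]; exact inv_mem hy
    | mul y z _ _ hy hz => rw [map_mul]; exact mul_mem hy hz
  let j : L →+* K' :=
    ((algebraMap N Z).comp (algebraMap L N)).codRestrict K'.toSubfield.toSubring hL
  have hbc : P025H816.IsBC (algebraMap kb C) j := by
    refine ⟨fun a => ?_, fun S h1 h2 => ?_⟩
    · apply Subtype.ext
      change algebraMap N Z (algebraMap kb N a) = algebraMap C Z (algebraMap kb C a)
      rw [← IsScalarTower.algebraMap_apply, ← IsScalarTower.algebraMap_apply]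
    · rw [eq_top_iff]
      rintro ⟨z, hz⟩ -
      have h3 : ∀ z (hz : z ∈ K'), (⟨z, hz⟩ : K') ∈ S := by
        intro z hz
        induction hz using IntermediateField.adjoin_induction with
        | mem y hy =>
          obtain ⟨x, hx, rfl⟩ := hy
          exact h2 ⟨x, subset_adjoin _ _ hx⟩
        | algebraMap a => exact h1 a
        | add y z hy' hz' hy hz => exact add_mem (s := S) hy hz
        | inv y hy' hy => exact inv_mem (s := S) hy
        | mul y z hy' hz' hy hz => exact mul_mem (s := S) hy hz
      exact h3 z hz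
  have hf0' : φ' f ≠ 0 := (map_ne_zero φ').2 hf0
  obtain ⟨g, -, hg, y, -, hy⟩ := hbc.exists_eq_mul_pow hn hf0' hd
  obtain ⟨w, hw⟩ := hN L n g hn hg
  refine ⟨algebraMap N Z w * (y : Z), ?_⟩
  rw [mul_pow, ← map_pow, hw]
  exact (congrArg Subtype.val hy).symm

end uc

end P025H833
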