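import Vale.Agent.P025.R2.H210.Lam

/-!
# P025 (S4r), helper833: functions without pole at infinity are functions on a smaller disc

`x : F2 C` with non-negative order at infinity: for large `δ` the restriction of `x` to
`|t| > ‖δ‖` lies in `A2 C`.
-/

open P025H373 P025H552 P025H210

universe u

namespace P025H833

section

variable {C : Type u} [NontriviallyNormedField C] [IsUltrametricDist C] [CompleteSpace C]
  [IsAlgClosed C]

/-- the inverse of a function on `|t| > 1` without zero at infinity is a function on `|t| > R`. -/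
theorem exists_inv_mem {v : A2 C} (hv : evInf C v ≠ 0) : ∃ R : ℝ, 1 ≤ R ∧
    ∀ (δ : C) (h0 : δ ≠ 0) (h : 1 ≤ ‖δ‖), R ≤ ‖δ‖ →
      ((sub2 δ h0 h (iA2 v) : F2 C) : F0 C)⁻¹ ∈ A2 C := by
  set a : C := evInf C v with ha
  set d : A2 C := (taylorData (C := C)).D v with hd
  have hspec : v = algebraMap C (A2 C) a + sA * d := (taylorData (C := C)).D_spec v
  have hapos : 0 < ‖a‖ := norm_pos_iff.2 hv
  refine ⟨max 1 (‖(d : F0 C)‖ / ‖a‖ + 1), le_max_left _ _, fun δ h0 h hR => ?_⟩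
  obtain ⟨τ, hτ, hs⟩ := exists_sub2A δ h0 h
  have hδpos : 0 < ‖δ‖ := norm_pos_iff.2 h0
  have h1 : sub2 δ h0 h (iA2 v) = iA2 (τ v) := (hτ v).symm
  have h2 : ((iA2 (τ v) : F2 C) : F0 C) = ((τ v : A2 C) : F0 C) := rfl
  rw [h1, h2]
  have h3 : τ v = algebraMap C (A2 C) a * (1 + algebraMap C (A2 C) (a⁻¹ * δ⁻¹) * (sA * τ d)) := by
    conv_lhs => rw [hspec]
    rw [map_add, map_mul, AlgHom.commutes, hs, mul_add, mul_one, ← mul_assoc (algebraMap C (A2 C) a),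
      ← map_mul, ← mul_assoc a, mul_inv_cancel₀ hv, one_mul, mul_assoc]
  set y : A2 C := 1 + algebraMap C (A2 C) (a⁻¹ * δ⁻¹) * (sA * τ d) with hy
  have hτd : ‖((τ d : A2 C) : F0 C)‖ ≤ ‖(d : F0 C)‖ := by
    have := (sub2_mem_A2 δ h0 h (iA2 d) d.2).2
    rw [← hτ d] at this
    exact this
  have hsn : ‖((sA : A2 C) : F0 C)‖ = 1 := by
    have : ((sA : A2 C) : F0 C) = (tt C)⁻¹ := rfl
    rw [this, norm_inv, norm_tt, inv_one]
  have hyn : ‖(y : F0 C) - 1‖ < 1 := by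
    have e1 : (y : F0 C) - 1 =
        algebraMap C (F0 C) (a⁻¹ * δ⁻¹) * (((sA : A2 C) : F0 C) * ((τ d : A2 C) : F0 C)) := by
      have : (y : F0 C) = 1 + algebraMap C (F0 C) (a⁻¹ * δ⁻¹) *
          (((sA : A2 C) : F0 C) * ((τ d : A2 C) : F0 C)) := rfl
      rw [this]
      ring
    rw [e1, norm_mul, norm_mul, hsn, one_mul, norm_algebraMap', norm_mul, norm_inv, norm_inv]
    have hlt : ‖(d : F0 C)‖ < ‖a‖ * ‖δ‖ := by
      have h5 : ‖(d : F0 C)‖ / ‖a‖ < ‖δ‖ := by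
        have := (le_max_right (1 : ℝ) (‖(d : F0 C)‖ / ‖a‖ + 1)).trans hR
        linarith
      rw [div_lt_iff₀ hapos] at h5
      linarith
    calc ‖a‖⁻¹ * ‖δ‖⁻¹ * ‖((τ d : A2 C) : F0 C)‖ ≤ ‖a‖⁻¹ * ‖δ‖⁻¹ * ‖(d : F0 C)‖ := by gcongr
      _ = ‖(d : F0 C)‖ / (‖a‖ * ‖δ‖) := by field_simp
      _ < 1 := by
        rw [div_lt_one (by positivity)]
        exact hlt
  have hyi : ((y : A2 C) : F0 C)⁻¹ ∈ A2 C := inv_mem_A2_of_near y.2 hyn
  have h4 : ((τ v : A2 C) : F0 C) = algebraMap C (F0 C) a * (y : F0 C) := by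
    rw [h3]
    rfl
  rw [h4, mul_inv, ← map_inv₀]
  exact mul_mem ((A2 C).algebraMap_mem a⁻¹) hyi

/-- **(S4r)**, uniform form. -/
theorem exists_sub2_mem_A2 (x : F2 C) (hx : 0 ≤ (lamInf x).order) : ∃ R : ℝ, 1 ≤ R ∧
    ∀ (δ : C) (h0 : δ ≠ 0) (h : 1 ≤ ‖δ‖), R ≤ ‖δ‖ → ((sub2 δ h0 h x : F2 C) : F0 C) ∈ A2 C := by
  by_cases hx0 : x = 0
  · refine ⟨1, le_refl _, fun δ h0 h _ => ?_⟩
    rw [hx0, map_zero]
    exact zero_mem _
  obtain ⟨k, u, v, hu, hv, rfl⟩ := exists_t2_zpow hx0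
  rw [order_eq_of_hasOrd (hasOrd_t2_zpow hu hv)] at hx
  obtain ⟨R, hR1, hR⟩ := exists_inv_mem hv
  refine ⟨R, hR1, fun δ h0 h hδ => ?_⟩
  obtain ⟨j, hj⟩ : ∃ j : ℕ, k = -(j : ℤ) := ⟨(-k).toNat, by omega⟩
  have e1 : (t2 : F2 C) ^ k = iA2 (sA ^ j) := by
    rw [hj, zpow_neg, zpow_natCast, ← inv_pow, inv_t2, map_pow]
  rw [e1, map_mul, map_div₀, div_eq_mul_inv]
  have m1 := (sub2_mem_A2 δ h0 h (iA2 (sA ^ j)) (sA ^ j : A2 C).2).1
  have m2 := (sub2_mem_A2 δ h0 h (iA2 u) u.2).1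
  exact mul_mem m1 (mul_mem m2 (hR δ h0 h hδ))

/-- **(S4r)**, the form of helper535. -/
theorem exists_delta (x : F2 C) (hx : 0 ≤ (lamInf x).order) :
    ∃ (δ₀ : Cˣ) (h : 1 ≤ ‖(δ₀ : C)‖), ((sub2 (δ₀ : C) δ₀.ne_zero h x : F2 C) : F0 C) ∈ A2 C := by
  obtain ⟨R, hR1, hR⟩ := exists_sub2_mem_A2 x hx
  obtain ⟨δ, hδ⟩ := NormedField.exists_lt_norm C R
  have h0 : δ ≠ 0 := by
    rintro rfl
    rw [norm_zero] at hδ
    linarith
  exact ⟨Units.mk0 δ h0, (hR1.trans hδ.le), hR δ h0 (hR1.trans hδ.le) hδ.le⟩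

end

end P025H833
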