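import Vale.Agent.P025.R2.H602.Roots
import Vale.Agent.P025.R2.H544.Defs

/-!
# P025 A-DIV (c1), helper833: density step.

`κ/F0` algebraic, `F0` complete ultrametric, generated by a field `N` over a dense
subfield `F` of `F0`: if every element of `N` is a `q`-th power in `κ`, so is every element of `κ`.
-/

open Filter Topology
open scoped TensorProduct

namespace P025H833

section

variable {F0 κ : Type*} [NontriviallyNormedField F0] [IsUltrametricDist F0] [CompleteSpace F0]
  [Field κ] [Algebra F0 κ] [Algebra.IsAlgebraic F0 κ]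

/-- elements near `1` are `q`-th powers, in the spectral norm of an algebraic extension of a
complete field. -/
theorem exists_pow_of_spectral {q : ℕ} (hq : (q : F0) ≠ 0) {u : κ}
    (hu : spectralNorm F0 κ (u - 1) < ‖(q : F0)‖ ^ 2) : ∃ y : κ, y ^ q = u := by
  let E : IntermediateField F0 κ := IntermediateField.adjoin F0 {u}
  have hfd : FiniteDimensional F0 E :=
    IntermediateField.adjoin.finiteDimensional (Algebra.IsIntegral.isIntegral u)
  let nf : NormedField E := spectralNorm.normedField F0 E
  let na : NormedAlgebra F0 E := spectralNorm.normedAlgebra F0 E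
  have hcs : CompleteSpace E := spectralNorm.completeSpace F0 E
  have hnorm : ∀ x : E, ‖x‖ = spectralNorm F0 κ (x : κ) := fun x =>
    spectralNorm.eq_of_tower (K := F0) (L := κ) (E := E) x
  have hum : IsUltrametricDist E :=
    IsUltrametricDist.isUltrametricDist_of_forall_norm_add_le_max_norm
      (fun x y => isNonarchimedean_spectralNorm (K := F0) (L := E) x y)
  have huE : u ∈ E := IntermediateField.mem_adjoin_simple_self F0 u
  let v : E := ⟨u, huE⟩
  have hv : ‖v - 1‖ < ‖(q : F0)‖ ^ 2 := by
    rw [hnorm]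
    exact hu
  obtain ⟨y, -, hy, -⟩ := P025H373.exists_pow_eq (C := F0) (A := E) ⊤ isClosed_univ
    (fun _ => trivial) hq (x := v) trivial hv
  exact ⟨y, by rw [← SubmonoidClass.coe_pow, hy]⟩

/-- density of the image of `N`. -/
theorem exists_spectral_lt {F N : Type*} [Field F] [Algebra F F0] [Algebra F κ]
    [IsScalarTower F F0 κ] [Field N] [Algebra F N] (f : N →ₐ[F] κ)
    (hd : DenseRange (algebraMap F F0))
    (hspan : Submodule.span F0 (Set.range f) = ⊤) (x : κ) {ε : ℝ} (hε : 0 < ε) :
    ∃ n : N, spectralNorm F0 κ (x - f n) < ε := by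
  let nf : NormedField κ := spectralNorm.normedField F0 κ
  let na : NormedAlgebra F0 κ := spectralNorm.normedAlgebra F0 κ
  have hS : ∀ y : κ, y ∈ closure (Set.range f) := by
    intro y
    have hy : y ∈ Submodule.span F0 (Set.range f) := hspan ▸ Submodule.mem_top
    induction hy using Submodule.span_induction with
    | mem y hy => exact subset_closure hy
    | zero => exact subset_closure ⟨0, map_zero f⟩
    | add y z _ _ hy hz =>
      refine map_mem_closure₂ continuous_add hy hz ?_
      rintro _ ⟨a, rfl⟩ _ ⟨b, rfl⟩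
      exact ⟨a + b, map_add f a b⟩
    | smul a y _ hy =>
      refine map_mem_closure₂ (f := fun (a : F0) (y : κ) => a • y) continuous_smul (hd a) hy ?_
      rintro _ ⟨a, rfl⟩ _ ⟨b, rfl⟩
      refine ⟨a • b, ?_⟩
      rw [map_smul]
      exact (algebraMap_smul F0 a (f b)).symm
  obtain ⟨_, ⟨n, rfl⟩, hn⟩ := Metric.mem_closure_iff.1 (hS x) ε hε
  exact ⟨n, hn⟩

/-- if every element of `N` is a `q`-th power in `κ`, so is every element of `κ`. -/
theorem exists_pow_of_dense {F N : Type*} [Field F] [Algebra F F0] [Algebra F κ]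
    [IsScalarTower F F0 κ] [Field N] [Algebra F N] (f : N →ₐ[F] κ)
    (hd : DenseRange (algebraMap F F0))
    (hspan : Submodule.span F0 (Set.range f) = ⊤) {q : ℕ} (hq : (q : F0) ≠ 0)
    (H : ∀ n : N, n ≠ 0 → ∃ y : κ, y ^ q = f n) (x : κ) : ∃ y : κ, y ^ q = x := by
  have hq0 : q ≠ 0 := by
    rintro rfl
    exact hq Nat.cast_zero
  by_cases hx : x = 0
  · exact ⟨0, by rw [zero_pow hq0, hx]⟩
  let nf : NormedField κ := spectralNorm.normedField F0 κ
  have hum : IsUltrametricDist κ :=
    IsUltrametricDist.isUltrametricDist_of_forall_norm_add_le_max_norm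
      (fun x y => isNonarchimedean_spectralNorm (K := F0) (L := κ) x y)
  have hxn : 0 < ‖x‖ := norm_pos_iff.2 hx
  have hqn : 0 < ‖(q : F0)‖ := norm_pos_iff.2 hq
  have hq1 : ‖(q : F0)‖ ≤ 1 := IsUltrametricDist.norm_natCast_le_one F0 q
  obtain ⟨n, hn⟩ := exists_spectral_lt f hd hspan x (ε := ‖x‖ * ‖(q : F0)‖ ^ 2) (by positivity)
  change ‖x - f n‖ < _ at hn
  have hlt : ‖x - f n‖ < ‖x‖ := hn.trans_le (by
    have : ‖(q : F0)‖ ^ 2 ≤ 1 := pow_le_one₀ (norm_nonneg _) hq1
    nlinarith)
  have hfn : ‖f n‖ = ‖x‖ := by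
    apply le_antisymm
    · have h2 := IsUltrametricDist.norm_add_le_max x (-(x - f n))
      have h1 : x + -(x - f n) = f n := by ring
      rw [h1, norm_neg, max_eq_left hlt.le] at h2
      exact h2
    · have h2 := IsUltrametricDist.norm_add_le_max (x - f n) (f n)
      have h1 : x - f n + f n = x := by ring
      rw [h1] at h2
      rcases le_max_iff.1 h2 with h3 | h3
      · exact absurd h3 (not_le.2 hlt)
      · exact h3
  have hfn0 : f n ≠ 0 := by
    rw [← norm_pos_iff, hfn]
    exact hxn
  have hn0 : n ≠ 0 := by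
    rintro rfl
    exact hfn0 (map_zero f)
  have hu : spectralNorm F0 κ (x / f n - 1) < ‖(q : F0)‖ ^ 2 := by
    change ‖x / f n - 1‖ < _
    have h1 : x / f n - 1 = (x - f n) / f n := by
      rw [sub_div, div_self hfn0]
    rw [h1, norm_div, hfn, div_lt_iff₀ hxn, mul_comm]
    exact hn
  obtain ⟨y, hy⟩ := exists_pow_of_spectral hq hu
  obtain ⟨z, hz⟩ := H n hn0
  exact ⟨y * z, by rw [mul_pow, hy, hz, div_mul_cancel₀ _ hfn0]⟩

end

/-! ## the form for points of `F0 ⊗[F] N` -/

section Points

open P025H544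

variable {F F0 N : Type*} [Field F] [NormedField F0] [IsUltrametricDist F0]
  [CompleteSpace F0] [Algebra F F0] [Field N] [Algebra F N] [Algebra.IsAlgebraic F N]

omit [IsUltrametricDist F0] [CompleteSpace F0] in
theorem isMaximal_point (e : Pt F F0 N) : e.asIdeal.IsMaximal := by
  have : Algebra.IsIntegral F0 (F0 ⊗[F] N) := inferInstance
  apply Ideal.isMaximal_of_isIntegral_of_isMaximal_comap (R := F0)
  have h : (e.asIdeal.comap (algebraMap F0 (F0 ⊗[F] N))) = ⊥ := by
    rcases Ideal.eq_bot_or_top (e.asIdeal.comap (algebraMap F0 (F0 ⊗[F] N))) with h | h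
    · exact h
    · exfalso
      rw [Ideal.comap_eq_top_iff] at h
      exact e.isPrime.ne_top h
  rw [h]
  exact Ideal.bot_isMaximal

/-- **(A2.1), density step**: if all elements of `N` become `q`-th powers in the residue field of
`e ∈ E(N)`, then all elements of the residue field are `q`-th powers. `N/F` algebraic, of any
degree. -/
theorem res_exists_pow (hnt : ∃ c : F0, 1 < ‖c‖) (hd : DenseRange (algebraMap F F0))
    (e : Pt F F0 N) {q : ℕ} (hq : (q : F0) ≠ 0)
    (H : ∀ h : N, h ≠ 0 → ∃ y : Res F F0 N e,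
      y ^ q = Ideal.Quotient.mk e.asIdeal ((1 : F0) ⊗ₜ[F] h))
    (x : Res F F0 N e) : ∃ y : Res F F0 N e, y ^ q = x := by
  let nn : NontriviallyNormedField F0 := { ‹NormedField F0› with non_trivial := hnt }
  have hmax := isMaximal_point e
  let fl : Field (Res F F0 N e) := Ideal.Quotient.field e.asIdeal
  have halg : Algebra.IsAlgebraic F0 (Res F F0 N e) := by
    have : Algebra.IsIntegral F0 (F0 ⊗[F] N) := inferInstance
    have h2 : Algebra.IsIntegral F0 (Res F F0 N e) :=
      Algebra.IsIntegral.of_surjective (Ideal.Quotient.mkₐ F0 e.asIdeal)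
        (Ideal.Quotient.mkₐ_surjective F0 e.asIdeal)
    exact Algebra.IsIntegral.isAlgebraic
  let f : N →ₐ[F] Res F F0 N e :=
    (Ideal.Quotient.mkₐ F e.asIdeal).comp Algebra.TensorProduct.includeRight
  have hspan : Submodule.span F0 (Set.range f) = ⊤ := by
    rw [eq_top_iff]
    rintro y -
    obtain ⟨z, rfl⟩ := Ideal.Quotient.mk_surjective y
    induction z with
    | zero => rw [map_zero]; exact Submodule.zero_mem _
    | add a b ha hb => rw [map_add]; exact Submodule.add_mem _ ha hb
    | tmul a n =>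
      have h1 : Ideal.Quotient.mk e.asIdeal (a ⊗ₜ[F] n) = a • f n := by
        change _ = Ideal.Quotient.mk e.asIdeal (a • ((1 : F0) ⊗ₜ[F] n))
        rw [TensorProduct.smul_tmul', smul_eq_mul, mul_one]
      rw [h1]
      exact Submodule.smul_mem _ _ (Submodule.subset_span ⟨n, rfl⟩)
  exact exists_pow_of_dense f hd hspan hq H x

end Points

end P025H833
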